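import Vale.Agent.P146.Defs

/-!
P146: lower bound for the lower large deviations of the free energy: scaling of the disorder.
-/

open MeasureTheory ProbabilityTheory

namespace Vale.Agent.P146.R2.H890

open Vale.Agent.P146

/-! ### Scaling of a standard Gaussian vector -/

section gauss

variable {ι : Type*} [Fintype ι]

/-- The standard Gaussian law. -/
noncomputable def gP (ι : Type*) [Fintype ι] : Measure (ι → ℝ) :=
  Measure.pi fun _ : ι => gaussianReal 0 1

instance : IsProbabilityMeasure (gP ι) := by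
  unfold gP; infer_instance

/-- The density of `s g` with respect to `g`, one coordinate. -/
noncomputable def dn (s y : ℝ) : ℝ := s⁻¹ * Real.exp (y ^ 2 / 2 - y ^ 2 / (2 * s ^ 2))

lemma dn_pos {s : ℝ} (hs : 0 < s) (y : ℝ) : 0 < dn s y := by
  unfold dn; positivity

lemma measurable_dn (s : ℝ) : Measurable (dn s) := by
  unfold dn
  fun_prop

lemma gaussian_scale {s : ℝ} (hs : 0 < s) :
    (gaussianReal 0 1).map (fun y => s * y) =
      (gaussianReal 0 1).withDensity fun y => ENNReal.ofReal (dn s y) := by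
  rw [gaussianReal_map_const_mul]
  generalize hvd : NNReal.mk (s ^ 2) (sq_nonneg s) * 1 = v
  have hvr : (v : ℝ) = s ^ 2 := by rw [← hvd, mul_one]; rfl
  have hv : v ≠ 0 := by
    intro h
    rw [h] at hvr
    have : (0 : ℝ) < s ^ 2 := by positivity
    rw [← hvr] at this
    simp at this
  rw [gaussianReal_of_var_ne_zero _ hv, gaussianReal_of_var_ne_zero _ one_ne_zero]
  rw [← withDensity_mul _ (measurable_gaussianPDF _ _) (by
    exact (measurable_dn s).ennreal_ofReal)]
  congr 1
  funext y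
  simp only [Pi.mul_apply, gaussianPDF]
  rw [← ENNReal.ofReal_mul (gaussianPDFReal_nonneg _ _ _)]
  congr 1
  unfold gaussianPDFReal dn
  simp only [mul_zero, sub_zero, mul_one, NNReal.coe_one, hvr]
  rw [Real.sqrt_mul (by positivity : (0:ℝ) ≤ 2 * Real.pi), Real.sqrt_sq hs.le]
  rw [mul_inv]
  have : Real.exp (-y ^ 2 / (2 * s ^ 2)) =
      Real.exp (-y ^ 2 / 2) * Real.exp (y ^ 2 / 2 - y ^ 2 / (2 * s ^ 2)) := by
    rw [← Real.exp_add]; congr 1; ring
  rw [this]; ring

instance isProb_gs (s : ℝ) : IsProbabilityMeasure ((gaussianReal 0 1).map (fun y => s * y)) :=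
  Measure.isProbabilityMeasure_map (by fun_prop)

lemma lintegral_dn {s : ℝ} (hs : 0 < s) :
    ∫⁻ y, ENNReal.ofReal (dn s y) ∂(gaussianReal 0 1) = 1 := by
  have h := measure_univ (μ := (gaussianReal 0 1).map (fun y => s * y))
  rw [gaussian_scale hs, withDensity_apply _ MeasurableSet.univ, Measure.restrict_univ] at h
  exact h

lemma integrable_dn {s : ℝ} (hs : 0 < s) : Integrable (dn s) (gaussianReal 0 1) := by
  refine ⟨(measurable_dn s).aestronglyMeasurable, ?_⟩
  rw [hasFiniteIntegral_iff_ofReal (Filter.Eventually.of_forall fun y => (dn_pos hs y).le),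
    lintegral_dn hs]
  exact ENNReal.one_lt_top

lemma integral_dn {s : ℝ} (hs : 0 < s) : ∫ y, dn s y ∂(gaussianReal 0 1) = 1 := by
  rw [integral_eq_lintegral_of_nonneg_ae
    (Filter.Eventually.of_forall fun y => (dn_pos hs y).le)
    (measurable_dn s).aestronglyMeasurable, lintegral_dn hs]
  rfl

/-- The product density. -/
noncomputable def DN (s : ℝ) (y : ι → ℝ) : ℝ := ∏ i, dn s (y i)

lemma DN_pos {s : ℝ} (hs : 0 < s) (y : ι → ℝ) : 0 < DN s y :=
  Finset.prod_pos fun i _ => dn_pos hs (y i)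

lemma measurable_DN (s : ℝ) : Measurable (DN (ι := ι) s) := by
  unfold DN
  exact Finset.measurable_prod _ fun i _ => (measurable_dn s).comp (measurable_pi_apply i)

lemma integrable_DN {s : ℝ} (hs : 0 < s) : Integrable (DN (ι := ι) s) (gP ι) := by
  unfold DN gP
  exact Integrable.fintype_prod (fun _ => integrable_dn hs)

/-- The law of `s g` has the density `DN s`. -/
theorem gP_scale {s : ℝ} (hs : 0 < s) :
    (gP ι).map (fun g i => s * g i) =
      (gP ι).withDensity fun y => ENNReal.ofReal (DN s y) := by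
  have h1 : (gP ι).map (fun g i => s * g i) =
      Measure.pi fun _ : ι => (gaussianReal 0 1).map (fun y => s * y) := by
    unfold gP
    exact Measure.pi_map_pi (fun _ => by fun_prop)
  rw [h1]
  refine Measure.pi_eq fun t ht => ?_
  rw [withDensity_apply _ (MeasurableSet.univ_pi ht)]
  have hr : (gP ι).restrict (Set.univ.pi t) =
      Measure.pi fun i => (gaussianReal 0 1).restrict (t i) := by
    unfold gP
    rw [Measure.restrict_pi_pi]
  have hi : Integrable (DN (ι := ι) s) ((gP ι).restrict (Set.univ.pi t)) :=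
    (integrable_DN hs).restrict
  rw [← ofReal_integral_eq_lintegral_ofReal hi
    (Filter.Eventually.of_forall fun y => (DN_pos hs y).le), hr]
  unfold DN
  rw [integral_fintype_prod_eq_prod (fun _ => dn s),
    ENNReal.ofReal_prod_of_nonneg fun i _ => integral_nonneg fun y => (dn_pos hs y).le]
  refine Finset.prod_congr rfl fun i _ => ?_
  rw [gaussian_scale hs, withDensity_apply _ (ht i),
    ← ofReal_integral_eq_lintegral_ofReal (integrable_dn hs).restrict
    (Filter.Eventually.of_forall fun y => (dn_pos hs y).le)]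

/-- The square of the density is again a density, up to a factor. -/
lemma dn_sq {s : ℝ} (h0 : 0 < s) (h1 : s ≤ 1) (y : ℝ) :
    dn s y ^ 2 = (s * Real.sqrt (2 - s ^ 2))⁻¹ * dn (s / Real.sqrt (2 - s ^ 2)) y := by
  have h2 : 0 < 2 - s ^ 2 := by nlinarith
  have h3 : 0 < Real.sqrt (2 - s ^ 2) := Real.sqrt_pos.2 h2
  have h4 : Real.sqrt (2 - s ^ 2) ^ 2 = 2 - s ^ 2 := Real.sq_sqrt h2.le
  unfold dn
  have e1 : Real.exp (y ^ 2 / 2 - y ^ 2 / (2 * s ^ 2)) ^ 2 =
      Real.exp (y ^ 2 / 2 - y ^ 2 / (2 * (s / Real.sqrt (2 - s ^ 2)) ^ 2)) := by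
    rw [← Real.exp_nat_mul]
    congr 1
    rw [div_pow, h4]
    push_cast
    field_simp
    ring
  rw [mul_pow, e1]
  rw [← mul_assoc]
  congr 1
  field_simp

theorem integral_DN_sq {s : ℝ} (h0 : 0 < s) (h1 : s ≤ 1) :
    ∫ y, DN (ι := ι) s y ^ 2 ∂(gP ι) =
      ((s * Real.sqrt (2 - s ^ 2))⁻¹) ^ Fintype.card ι := by
  have h2 : 0 < 2 - s ^ 2 := by nlinarith
  have h3 : 0 < Real.sqrt (2 - s ^ 2) := Real.sqrt_pos.2 h2
  have e1 : ∀ y : ι → ℝ, DN s y ^ 2 =
      ((s * Real.sqrt (2 - s ^ 2))⁻¹) ^ Fintype.card ι *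
        DN (s / Real.sqrt (2 - s ^ 2)) y := by
    intro y
    unfold DN
    rw [← Finset.prod_pow, ← Finset.card_univ, ← Finset.prod_const, ← Finset.prod_mul_distrib]
    exact Finset.prod_congr rfl fun i _ => dn_sq h0 h1 (y i)
  simp only [e1]
  rw [integral_const_mul]
  have h5 : 0 < s / Real.sqrt (2 - s ^ 2) := div_pos h0 h3
  have : ∫ y, DN (ι := ι) (s / Real.sqrt (2 - s ^ 2)) y ∂(gP ι) = 1 := by
    unfold DN gP
    rw [integral_fintype_prod_eq_prod (fun _ => dn (s / Real.sqrt (2 - s ^ 2)))]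
    exact Finset.prod_eq_one fun i _ => integral_dn h5
  rw [this, mul_one]

/-- Change of the scale: a set of large measure for `s g` has not too small a measure. -/
theorem scale_lower {s : ℝ} (h0 : 0 < s) (h1 : s ≤ 1) {A : Set (ι → ℝ)}
    (hA : MeasurableSet A) (hh : 1 / 2 ≤ (gP ι).real {g | (fun i => s * g i) ∈ A}) :
    (s * Real.sqrt (2 - s ^ 2)) ^ Fintype.card ι / 4 ≤ (gP ι).real A := by
  have h2 : 0 < 2 - s ^ 2 := by nlinarith
  have h3 : 0 < Real.sqrt (2 - s ^ 2) := Real.sqrt_pos.2 h2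
  obtain ⟨B, hB⟩ : ∃ B, B = ((s * Real.sqrt (2 - s ^ 2))⁻¹) ^ Fintype.card ι := ⟨_, rfl⟩
  have hBpos : 0 < B := by rw [hB]; positivity
  have hI := integral_DN_sq (ι := ι) h0 h1
  rw [← hB] at hI
  have hint2 : Integrable (fun y => DN (ι := ι) s y ^ 2) (gP ι) := by
    refine (integrable_of_integral_eq_one ?_ : Integrable
      (fun y => B⁻¹ * DN (ι := ι) s y ^ 2) (gP ι)).const_mul B |>.congr ?_
    · rw [integral_const_mul, hI]
      field_simp
    · refine Filter.Eventually.of_forall fun y => ?_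
      simp only
      field_simp
  have e1 : (gP ι).real {g | (fun i => s * g i) ∈ A} = ∫ y in A, DN s y ∂(gP ι) := by
    have hm : Measurable fun (g : ι → ℝ) (i : ι) => s * g i := by fun_prop
    have : (gP ι) {g | (fun i => s * g i) ∈ A} =
        (gP ι).map (fun g i => s * g i) A := (Measure.map_apply hm hA).symm
    rw [measureReal_def, this, gP_scale h0, withDensity_apply _ hA,
      integral_eq_lintegral_of_nonneg_ae
      (Filter.Eventually.of_forall fun y => (DN_pos h0 y).le)
      (measurable_DN s).aestronglyMeasurable]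
  have e2 : ∫ y in A, DN (ι := ι) s y ∂(gP ι) ≤
      ∫ y in A, (B + DN (ι := ι) s y ^ 2 / (4 * B)) ∂(gP ι) := by
    refine integral_mono (integrable_DN h0).restrict
      ((integrable_const B).add (hint2.div_const _)).restrict fun y => ?_
    simp only
    have hp := (DN_pos h0 y).le
    have : 0 ≤ (DN s y - 2 * B) ^ 2 / (4 * B) := by positivity
    have e : (DN s y - 2 * B) ^ 2 / (4 * B) = DN s y ^ 2 / (4 * B) - DN s y + B := by
      field_simp; ring
    linarith
  have e3 : ∫ y in A, (B + DN (ι := ι) s y ^ 2 / (4 * B)) ∂(gP ι) =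
      (gP ι).real A * B + (∫ y in A, DN (ι := ι) s y ^ 2 ∂(gP ι)) / (4 * B) := by
    rw [integral_add (integrable_const B).restrict (hint2.div_const _).restrict,
      setIntegral_const, smul_eq_mul, integral_div]
  have e4 : ∫ y in A, DN (ι := ι) s y ^ 2 ∂(gP ι) ≤ B := by
    rw [← hI]
    exact setIntegral_le_integral hint2 (Filter.Eventually.of_forall fun y => sq_nonneg _)
  have e5 : (∫ y in A, DN (ι := ι) s y ^ 2 ∂(gP ι)) / (4 * B) ≤ 1 / 4 := by
    rw [div_le_div_iff₀ (by positivity) (by norm_num)]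
    linarith
  have e6 : 1 / 4 ≤ (gP ι).real A * B := by
    rw [e1] at hh
    linarith
  have e7 : (s * Real.sqrt (2 - s ^ 2)) ^ Fintype.card ι = B⁻¹ := by
    rw [hB, inv_pow, inv_inv]
  rw [e7, div_le_iff₀ (by norm_num), inv_le_iff_one_le_mul₀ hBpos]
  linarith

end gauss

end Vale.Agent.P146.R2.H890
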