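import Vale.Agent.P146.R2.H890.LoD

/-!
P146: the lower large deviations of the free energy have at least the speed `n ^ 2`.
-/

open MeasureTheory ProbabilityTheory

namespace Vale.Agent.P146.R2.H890

open Vale.Agent.P146

variable {n : ℕ} {β : ℝ}

lemma hamiltonian_smul (s : ℝ) (g : Pair n → ℝ) (σ : Fin n → ℤˣ) :
    hamiltonian n (fun p => s * g p) σ = s * hamiltonian n g σ := by
  unfold hamiltonian
  rw [Finset.mul_sum, Finset.mul_sum, Finset.mul_sum]
  exact Finset.sum_congr rfl fun p _ => by ring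

lemma partitionFn_pos' (g : Pair n → ℝ) : 0 < partitionFn n β g :=
  Finset.sum_pos (fun _ _ => Real.exp_pos _) Finset.univ_nonempty

lemma card_spins : Fintype.card (Fin n → ℤˣ) = 2 ^ n := by
  rw [Fintype.card_fun, Fintype.card_fin, Fintype.card_units_int]

/-- Scaling of the disorder. -/
theorem free_scale {d : ℝ} (h0 : 0 ≤ d) (h1 : d ≤ 1) (g : Pair n → ℝ) :
    freeEnergy n β (fun p => (1 - d) * g p) ≤
      (1 - d) * freeEnergy n β g + d * (n * Real.log 2) := by
  obtain ⟨M, hM⟩ : ∃ M : ℝ, M = 2 ^ n := ⟨_, rfl⟩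
  have hMpos : 0 < M := by rw [hM]; positivity
  have hlogM : Real.log M = n * Real.log 2 := by rw [hM, Real.log_pow]
  have hcard : (Finset.univ : Finset (Fin n → ℤˣ)).card = 2 ^ n := by
    rw [Finset.card_univ, card_spins]
  have hZ := partitionFn_pos' (n := n) (β := β) g
  have hZ' := partitionFn_pos' (n := n) (β := β) (fun p => (1 - d) * g p)
  have hJ := (Real.concaveOn_rpow (p := 1 - d) (by linarith) (by linarith)).le_map_sum
    (t := (Finset.univ : Finset (Fin n → ℤˣ))) (w := fun _ => M⁻¹)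
    (p := fun σ => Real.exp (β * hamiltonian n g σ))
    (fun _ _ => by positivity)
    (by rw [Finset.sum_const, hcard, nsmul_eq_mul, hM]; push_cast; field_simp)
    (fun σ _ => (Real.exp_pos _).le)
  simp only [smul_eq_mul] at hJ
  rw [← Finset.mul_sum, ← Finset.mul_sum] at hJ
  have e1 : ∑ σ : Fin n → ℤˣ, Real.exp (β * hamiltonian n g σ) ^ (1 - d) =
      partitionFn n β (fun p => (1 - d) * g p) := by
    unfold partitionFn
    refine Finset.sum_congr rfl fun σ _ => ?_
    rw [hamiltonian_smul, ← Real.exp_mul]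
    congr 1; ring
  have e2 : ∑ σ : Fin n → ℤˣ, Real.exp (β * hamiltonian n g σ) = partitionFn n β g := rfl
  rw [e1, e2] at hJ
  have h2 := Real.log_le_log (by positivity) hJ
  rw [Real.log_mul (by positivity) hZ'.ne', Real.log_inv,
    Real.log_rpow (by positivity), Real.log_mul (by positivity) hZ.ne', Real.log_inv, hlogM] at h2
  unfold freeEnergy
  linarith

lemma two_mul_card_pair : 2 * Fintype.card (Pair n) ≤ n ^ 2 := by
  have h : Fintype.card (Pair n ⊕ Pair n) ≤ Fintype.card (Fin n × Fin n) := by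
    refine Fintype.card_le_of_injective
      (Sum.elim (fun p => p.1) fun p => (p.1.2, p.1.1)) ?_
    rintro (a | a) (b | b) h
    · simp only [Sum.elim_inl] at h
      rw [Subtype.ext h]
    · simp only [Sum.elim_inl, Sum.elim_inr] at h
      have h1 := a.2
      have h2 := b.2
      rw [h] at h1
      exact absurd h1 (not_lt.2 h2.le)
    · simp only [Sum.elim_inl, Sum.elim_inr] at h
      have h1 := a.2
      have h2 := b.2
      rw [← h] at h2
      exact absurd h1 (not_lt.2 h2.le)
    · simp only [Sum.elim_inr, Prod.mk.injEq] at h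
      congr 1
      exact Subtype.ext (Prod.ext h.2 h.1)
  rw [Fintype.card_sum, Fintype.card_prod, Fintype.card_fin] at h
  nlinarith

lemma exp_le_factor {d : ℝ} (h0 : 0 ≤ d) (h1 : d ≤ 1 / 4) :
    Real.exp (-(8 / 3 * d ^ 2)) ≤ (1 - d) * Real.sqrt (2 - (1 - d) ^ 2) := by
  have h2 : 0 < 2 - (1 - d) ^ 2 := by nlinarith
  have h3 : 0 < 1 - d := by linarith
  have hx : 4 * d ^ 2 ≤ 1 / 4 := by nlinarith
  have hx0 : 0 ≤ d ^ 2 := sq_nonneg d
  have e1 : Real.exp (-(16 / 3 * d ^ 2)) ≤ 1 - 4 * d ^ 2 := by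
    rw [Real.exp_neg, inv_le_comm₀ (Real.exp_pos _) (by linarith)]
    refine le_trans ?_ (Real.add_one_le_exp _)
    rw [inv_le_iff_one_le_mul₀ (by linarith)]
    nlinarith
  have e2 : 1 - 4 * d ^ 2 ≤ ((1 - d) * Real.sqrt (2 - (1 - d) ^ 2)) ^ 2 := by
    rw [mul_pow, Real.sq_sqrt h2.le]
    nlinarith [mul_nonneg h0 (mul_nonneg h0 h0), mul_nonneg (mul_nonneg h0 h0) (mul_nonneg h0 h0),
      mul_nonneg (mul_nonneg h0 (mul_nonneg h0 h0)) (by linarith : (0:ℝ) ≤ 1 / 4 - d)]
  have e3 : Real.exp (-(8 / 3 * d ^ 2)) ^ 2 = Real.exp (-(16 / 3 * d ^ 2)) := by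
    rw [← Real.exp_nat_mul]; congr 1; push_cast; ring
  have h4 : 0 ≤ (1 - d) * Real.sqrt (2 - (1 - d) ^ 2) := by positivity
  exact le_of_sq_le_sq (by rw [e3]; exact e1.trans e2) h4

lemma measurable_free : Measurable (freeEnergy n β) := by
  unfold freeEnergy partitionFn hamiltonian
  fun_prop

/-- A lower bound for the lower tail from a median bound. -/
theorem lower_of_le {a b d : ℝ} (h0 : 0 ≤ d) (h1 : d ≤ 1 / 4)
    (hab : (1 - d) * a + d * (n * Real.log 2) ≤ b)
    (hh : 1 / 2 ≤ (disorder n).real {g | freeEnergy n β g ≤ a}) :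
    Real.exp (-(4 / 3 * d ^ 2 * n ^ 2)) / 4 ≤
      (disorder n).real {g | freeEnergy n β g ≤ b} := by
  have hd : disorder n = gP (Pair n) := rfl
  rw [hd] at hh ⊢
  have hA : MeasurableSet {g : Pair n → ℝ | freeEnergy n β g ≤ b} :=
    measurableSet_le measurable_free measurable_const
  have hs := scale_lower (ι := Pair n) (s := 1 - d) (by linarith) (by linarith) hA (by
    refine hh.trans (measureReal_mono fun g hg => ?_)
    have hg' : freeEnergy n β g ≤ a := hg
    have h2 := free_scale (n := n) (β := β) h0 (by linarith) g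
    have h3 : (1 - d) * freeEnergy n β g ≤ (1 - d) * a :=
      mul_le_mul_of_nonneg_left hg' (by linarith)
    show freeEnergy n β (fun i => (1 - d) * g i) ≤ b
    linarith)
  refine le_trans ?_ hs
  have h4 := exp_le_factor h0 h1
  have h5 : Real.exp (-(4 / 3 * d ^ 2 * n ^ 2)) ≤
      Real.exp (-(8 / 3 * d ^ 2)) ^ Fintype.card (Pair n) := by
    rw [← Real.exp_nat_mul, Real.exp_le_exp]
    have h6 : (2 : ℝ) * Fintype.card (Pair n) ≤ (n : ℝ) ^ 2 := by
      exact_mod_cast two_mul_card_pair (n := n)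
    nlinarith [mul_le_mul_of_nonneg_left h6 (sq_nonneg d)]
  have h7 := pow_le_pow_left₀ (Real.exp_pos _).le h4 (Fintype.card (Pair n))
  linarith

/-- **Lower bound for the lower large deviations.** -/
theorem lower_dev {p u : ℝ} (hp : Real.log 2 < p) (hu0 : 0 ≤ u) (hu1 : u ≤ (p - Real.log 2) / 8)
    (hh : 1 / 2 ≤ (disorder n).real {g | freeEnergy n β g ≤ n * (p + u)}) :
    Real.exp (-(16 / 3 * u ^ 2 * n ^ 2 / (p - Real.log 2) ^ 2)) / 4 ≤
      (disorder n).real {g | freeEnergy n β g ≤ n * (p - u)} := by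
  have hq : 0 < p - Real.log 2 := by linarith
  have hn : (0 : ℝ) ≤ n := Nat.cast_nonneg n
  have hd0 : 0 ≤ 2 * u / (p - Real.log 2) := by positivity
  have hd1 : 2 * u / (p - Real.log 2) ≤ 1 / 4 := by
    rw [div_le_iff₀ hq]; linarith
  have hdq : 2 * u / (p - Real.log 2) * (p - Real.log 2) = 2 * u := by field_simp
  have h := lower_of_le (n := n) (β := β) (a := n * (p + u)) (b := n * (p - u)) hd0 hd1 (by
    have h1 : (1 - 2 * u / (p - Real.log 2)) * (n * (p + u)) +
        2 * u / (p - Real.log 2) * (n * Real.log 2) =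
        n * (p + u - 2 * u / (p - Real.log 2) * (p - Real.log 2) -
          2 * u / (p - Real.log 2) * u) := by ring
    rw [h1, hdq]
    refine mul_le_mul_of_nonneg_left ?_ hn
    nlinarith [mul_nonneg hd0 hu0]) hh
  refine le_trans (le_of_eq ?_) h
  congr 3
  field_simp
  ring

end Vale.Agent.P146.R2.H890
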